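import Mathlib

open InnerProductSpace Laplacian Filter Topology

namespace Vale.Agent.Lib.P100

variable {E : Type*} [NormedAddCommGroup E] [InnerProductSpace ℝ E] [FiniteDimensional ℝ E]

omit [FiniteDimensional ℝ E] in
/-- Second derivative along a line through `x` in direction `e`, for a `C^2` function. -/
theorem deriv_deriv_line {f : E → ℝ} {x : E} (hf : ContDiffAt ℝ 2 f x) (e : E) :
    deriv (deriv (fun t : ℝ => f (x + t • e))) 0 = fderiv ℝ (fderiv ℝ f) x e e := by
  have hline : ∀ t : ℝ, HasDerivAt (fun s : ℝ => x + s • e) e t := by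
    intro t
    have h1 : HasDerivAt (fun s : ℝ => s • e) ((1 : ℝ) • e) t := (hasDerivAt_id t).smul_const e
    simpa using h1.const_add x
  have hcont : ContinuousAt (fun s : ℝ => x + s • e) 0 := (hline 0).continuousAt
  have hx0 : (fun s : ℝ => x + s • e) 0 = x := by simp
  have hev : ∀ᶠ y in 𝓝 x, ContDiffAt ℝ 2 f y := hf.eventually (by simp)
  have hev' : ∀ᶠ t in 𝓝 (0 : ℝ), ContDiffAt ℝ 2 f (x + t • e) := by
    have := hcont.eventually (by rw [hx0]; exact hev)
    exact this
  have h3 : (deriv (fun s : ℝ => f (x + s • e))) =ᶠ[𝓝 (0 : ℝ)]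
      fun t => fderiv ℝ f (x + t • e) e := by
    filter_upwards [hev'] with t ht
    have hd : DifferentiableAt ℝ f (x + t • e) := ht.differentiableAt (by simp)
    exact (hd.hasFDerivAt.comp_hasDerivAt t (hline t)).deriv
  rw [h3.deriv_eq]
  have h2 : DifferentiableAt ℝ (fderiv ℝ f) x :=
    (hf.fderiv_right (m := 1) (by norm_num)).differentiableAt (by simp)
  have h4 : HasDerivAt (fun t : ℝ => fderiv ℝ f (x + t • e)) (fderiv ℝ (fderiv ℝ f) x e) 0 := by
    have h2' : HasFDerivAt (fderiv ℝ f) (fderiv ℝ (fderiv ℝ f) x) (x + (0 : ℝ) • e) := by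
      simpa using h2.hasFDerivAt
    exact h2'.comp_hasDerivAt (0 : ℝ) (hline 0)
  have h5 : HasDerivAt (fun t : ℝ => fderiv ℝ f (x + t • e) e) (fderiv ℝ (fderiv ℝ f) x e e) 0 :=
    h4.clm_apply (hasDerivAt_const (0 : ℝ) e) |>.congr_deriv (by simp)
  exact h5.deriv

/-- The Laplacian of a `C^2` function as the sum of second derivatives along an orthonormal
basis. -/
theorem laplacian_eq_sum_deriv_deriv {ι : Type*} [Fintype ι] (v : OrthonormalBasis ι ℝ E)
    {f : E → ℝ} {x : E} (hf : ContDiffAt ℝ 2 f x) :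
    Δ f x = ∑ i, deriv (deriv (fun t : ℝ => f (x + t • v i))) 0 := by
  rw [laplacian_eq_iteratedFDeriv_orthonormalBasis f v]
  refine Finset.sum_congr rfl (fun i _ => ?_)
  rw [iteratedFDeriv_two_apply, deriv_deriv_line hf]
  simp

/-- One-dimensional second-order necessary condition at a local minimum. -/
theorem deriv_deriv_nonneg_of_isLocalMin {g : ℝ → ℝ} {t₀ : ℝ} (hmin : IsLocalMin g t₀)
    (hc : ContinuousAt g t₀) : 0 ≤ deriv (deriv g) t₀ := by
  by_contra hneg
  push Not at hneg
  have hmax : IsLocalMax g t₀ := isLocalMax_of_deriv_deriv_neg hneg hmin.deriv_eq_zero hc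
  have hconst : g =ᶠ[𝓝 t₀] fun _ => g t₀ := by
    filter_upwards [hmin, hmax] with t h1 h2
    exact le_antisymm h2 h1
  have hd : deriv g =ᶠ[𝓝 t₀] fun _ => (0 : ℝ) := by
    have := hconst.deriv
    filter_upwards [this] with t ht
    rw [ht]
    simp
  have : deriv (deriv g) t₀ = 0 := by
    rw [hd.deriv_eq]
    simp
  linarith

/-- At an interior local minimum of a `C^2` function the Laplacian is nonnegative. -/
theorem laplacian_nonneg_of_isLocalMin {f : E → ℝ} {x : E} (hf : ContDiffAt ℝ 2 f x)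
    (hmin : IsLocalMin f x) : 0 ≤ Δ f x := by
  rw [laplacian_eq_sum_deriv_deriv (stdOrthonormalBasis ℝ E) hf]
  refine Finset.sum_nonneg (fun i _ => ?_)
  have hcont : ContinuousAt (fun s : ℝ => x + s • (stdOrthonormalBasis ℝ E) i) 0 := by
    fun_prop
  have hx0 : (fun s : ℝ => x + s • (stdOrthonormalBasis ℝ E) i) 0 = x := by simp
  apply deriv_deriv_nonneg_of_isLocalMin
  · have : ∀ᶠ y in 𝓝 ((fun s : ℝ => x + s • (stdOrthonormalBasis ℝ E) i) 0), f x ≤ f y := by
      rw [hx0]; exact hmin
    have h2 := hcont.eventually this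
    filter_upwards [h2] with t ht
    simpa using ht
  · have hfc : ContinuousAt f ((fun s : ℝ => x + s • (stdOrthonormalBasis ℝ E) i) 0) := by
      rw [hx0]; exact hf.continuousAt
    exact ContinuousAt.comp (g := f) hfc hcont

end Vale.Agent.Lib.P100
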