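import Mathlib
import Vale.Agent.Lib.P100.MinPrinciple

open InnerProductSpace Laplacian Filter Topology
open scoped RealInnerProductSpace

namespace Vale.Agent.Lib.P100

variable {E : Type*} [NormedAddCommGroup E] [InnerProductSpace ℝ E] [FiniteDimensional ℝ E]

/-- The radial comparison function `a (log |y|^2)^2 + b log |y|^2`. -/
noncomputable def radLog (a b : ℝ) (y : E) : ℝ :=
  a * (Real.log (‖y‖ ^ 2)) ^ 2 + b * Real.log (‖y‖ ^ 2)

omit [FiniteDimensional ℝ E] in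
theorem radLog_contDiffAt (a b : ℝ) {x : E} (hx : x ≠ 0) :
    ContDiffAt ℝ 2 (radLog (E := E) a b) x := by
  have h1 : ContDiffAt ℝ 2 (fun y : E => ‖y‖ ^ 2) x := (contDiff_norm_sq ℝ).contDiffAt
  have h2 : ContDiffAt ℝ 2 (fun y : E => Real.log (‖y‖ ^ 2)) x :=
    h1.log (by positivity)
  unfold radLog
  exact ((contDiffAt_const.mul (h2.pow 2)).add (contDiffAt_const.mul h2))

/-- second derivative at `0` of the one-variable model `a (log P)^2 + b log P`,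
`P t = q + 2 t c + t^2`. -/
theorem deriv_deriv_model (a b q c : ℝ) (hq : 0 < q) :
    deriv (deriv (fun t : ℝ => a * (Real.log (q + 2 * t * c + t ^ 2)) ^ 2
      + b * Real.log (q + 2 * t * c + t ^ 2))) 0
      = 2 * a * (2 * c / q) * (2 * c / q)
        + (2 * a * Real.log q + b) * ((2 * q - 2 * c * (2 * c)) / q ^ 2) := by
  have hP : ∀ t : ℝ, HasDerivAt (fun t : ℝ => q + 2 * t * c + t ^ 2) (2 * c + 2 * t) t := by
    intro t
    have h1 : HasDerivAt (fun t : ℝ => 2 * t * c) (2 * c) t := by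
      have := ((hasDerivAt_id t).const_mul (2 : ℝ)).mul_const c
      simpa using this
    have h2 : HasDerivAt (fun t : ℝ => t ^ 2) (2 * t) t := by
      simpa using hasDerivAt_pow 2 t
    have h3 : HasDerivAt (fun t : ℝ => q + 2 * t * c + t ^ 2) (0 + 2 * c + 2 * t) t :=
      ((hasDerivAt_const t q).add h1).add h2
    exact h3.congr_deriv (by ring)
  have hPc : ContinuousAt (fun t : ℝ => q + 2 * t * c + t ^ 2) 0 := (hP 0).continuousAt
  have hP0 : (fun t : ℝ => q + 2 * t * c + t ^ 2) 0 = q := by simp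
  have hpos : ∀ᶠ t in 𝓝 (0 : ℝ), 0 < q + 2 * t * c + t ^ 2 := by
    have : ∀ᶠ y in 𝓝 ((fun t : ℝ => q + 2 * t * c + t ^ 2) 0), 0 < y := by
      rw [hP0]; exact lt_mem_nhds hq
    exact hPc.eventually this
  have hG : ∀ t : ℝ, 0 < q + 2 * t * c + t ^ 2 →
      HasDerivAt (fun t : ℝ => a * (Real.log (q + 2 * t * c + t ^ 2)) ^ 2
        + b * Real.log (q + 2 * t * c + t ^ 2))
        ((2 * a * Real.log (q + 2 * t * c + t ^ 2) + b)
          * ((2 * c + 2 * t) / (q + 2 * t * c + t ^ 2))) t := by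
    intro t ht
    have hl := (hP t).log ht.ne'
    have h1 := (hl.pow 2).const_mul a
    have h2 := hl.const_mul b
    have h3 : HasDerivAt (fun t : ℝ => a * (Real.log (q + 2 * t * c + t ^ 2)) ^ 2
        + b * Real.log (q + 2 * t * c + t ^ 2)) _ t := h1.add h2
    refine h3.congr_deriv ?_
    simp
    ring
  have hd : deriv (fun t : ℝ => a * (Real.log (q + 2 * t * c + t ^ 2)) ^ 2
        + b * Real.log (q + 2 * t * c + t ^ 2)) =ᶠ[𝓝 (0 : ℝ)]
      fun t => (2 * a * Real.log (q + 2 * t * c + t ^ 2) + b)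
          * ((2 * c + 2 * t) / (q + 2 * t * c + t ^ 2)) := by
    filter_upwards [hpos] with t ht
    exact (hG t ht).deriv
  rw [hd.deriv_eq]
  have hq0 : q + 2 * (0 : ℝ) * c + (0 : ℝ) ^ 2 = q := by ring
  have hl0 := (hP 0).log (by rw [hq0]; exact hq.ne')
  have hA : HasDerivAt (fun t : ℝ => 2 * a * Real.log (q + 2 * t * c + t ^ 2) + b)
      (2 * a * ((2 * c + 2 * 0) / (q + 2 * (0 : ℝ) * c + (0 : ℝ) ^ 2))) 0 := by
    have := (hl0.const_mul (2 * a)).add_const b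
    simpa using this
  have hN : HasDerivAt (fun t : ℝ => 2 * c + 2 * t) 2 0 := by
    have := ((hasDerivAt_id (0 : ℝ)).const_mul (2 : ℝ)).const_add (2 * c)
    simpa using this
  have hB : HasDerivAt (fun t : ℝ => (2 * c + 2 * t) / (q + 2 * t * c + t ^ 2))
      ((2 * (q + 2 * (0 : ℝ) * c + (0 : ℝ) ^ 2) - (2 * c + 2 * 0) * (2 * c + 2 * 0))
        / (q + 2 * (0 : ℝ) * c + (0 : ℝ) ^ 2) ^ 2) 0 :=
    hN.div (hP 0) (by rw [hq0]; exact hq.ne')
  have hAB : HasDerivAt (fun t : ℝ => (2 * a * Real.log (q + 2 * t * c + t ^ 2) + b)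
      * ((2 * c + 2 * t) / (q + 2 * t * c + t ^ 2))) _ 0 := hA.mul hB
  rw [hAB.deriv]
  simp only [hq0]
  ring

omit [FiniteDimensional ℝ E] in
theorem radLog_line (a b : ℝ) (x e : E) (he : ‖e‖ = 1) :
    (fun t : ℝ => radLog a b (x + t • e))
      = fun t : ℝ => a * (Real.log (‖x‖ ^ 2 + 2 * t * ⟪x, e⟫ + t ^ 2)) ^ 2
        + b * Real.log (‖x‖ ^ 2 + 2 * t * ⟪x, e⟫ + t ^ 2) := by
  funext t
  have : ‖x + t • e‖ ^ 2 = ‖x‖ ^ 2 + 2 * t * ⟪x, e⟫ + t ^ 2 := by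
    rw [norm_add_sq_real, real_inner_smul_right, norm_smul, he]
    simp
    ring
  unfold radLog
  rw [this]

/-- The Laplacian of the radial comparison function. -/
theorem laplacian_radLog {ι : Type*} [Fintype ι] (v : OrthonormalBasis ι ℝ E) (a b : ℝ)
    {x : E} (hx : x ≠ 0) :
    Δ (radLog (E := E) a b) x
      = (8 * a + ((Fintype.card ι : ℝ) - 2) * (4 * a * Real.log (‖x‖ ^ 2) + 2 * b)) / ‖x‖ ^ 2 := by
  have hq : 0 < ‖x‖ ^ 2 := by positivity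
  rw [laplacian_eq_sum_deriv_deriv v (radLog_contDiffAt a b hx)]
  have hterm : ∀ i, deriv (deriv (fun t : ℝ => radLog a b (x + t • v i))) 0
      = 2 * a * (2 * ⟪x, v i⟫ / ‖x‖ ^ 2) * (2 * ⟪x, v i⟫ / ‖x‖ ^ 2)
        + (2 * a * Real.log (‖x‖ ^ 2) + b)
          * ((2 * ‖x‖ ^ 2 - 2 * ⟪x, v i⟫ * (2 * ⟪x, v i⟫)) / (‖x‖ ^ 2) ^ 2) := by
    intro i
    rw [radLog_line a b x (v i) (v.orthonormal.1 i)]
    exact deriv_deriv_model a b (‖x‖ ^ 2) ⟪x, v i⟫ hq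
  simp only [hterm]
  have hsum : ∑ i, ⟪x, v i⟫ ^ 2 = ‖x‖ ^ 2 := v.sum_sq_inner_left x
  have e1 : ∀ i, 2 * a * (2 * ⟪x, v i⟫ / ‖x‖ ^ 2) * (2 * ⟪x, v i⟫ / ‖x‖ ^ 2)
        + (2 * a * Real.log (‖x‖ ^ 2) + b)
          * ((2 * ‖x‖ ^ 2 - 2 * ⟪x, v i⟫ * (2 * ⟪x, v i⟫)) / (‖x‖ ^ 2) ^ 2)
      = (8 * a / (‖x‖ ^ 2) ^ 2 - 4 * (2 * a * Real.log (‖x‖ ^ 2) + b) / (‖x‖ ^ 2) ^ 2)
          * ⟪x, v i⟫ ^ 2
        + (2 * a * Real.log (‖x‖ ^ 2) + b) * (2 * ‖x‖ ^ 2) / (‖x‖ ^ 2) ^ 2 := by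
    intro i
    field_simp
    ring
  simp only [e1]
  rw [Finset.sum_add_distrib, ← Finset.mul_sum, hsum, Finset.sum_const, Finset.card_univ]
  simp only [nsmul_eq_mul]
  field_simp
  ring

end Vale.Agent.Lib.P100
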