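import Mathlib
import Vale.Agent.Lib.P100.RadialLog

open InnerProductSpace Laplacian Filter Topology
open scoped RealInnerProductSpace

namespace Vale.Agent.Lib.P100

variable {E : Type*} [NormedAddCommGroup E] [InnerProductSpace ℝ E] [FiniteDimensional ℝ E]

/-- Weak minimum principle on a closed annulus for a strictly superharmonic `C^2` function. -/
theorem annulus_min {w : E → ℝ} {ρ R m : ℝ}
    (hcont : ContinuousOn w {x | ρ ≤ ‖x‖ ∧ ‖x‖ ≤ R})
    (hC2 : ∀ x, ρ < ‖x‖ → ‖x‖ < R → ContDiffAt ℝ 2 w x)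
    (hlap : ∀ x, ρ < ‖x‖ → ‖x‖ < R → Δ w x < 0)
    (hin : ∀ x, ‖x‖ = ρ → m ≤ w x) (hout : ∀ x, ‖x‖ = R → m ≤ w x) :
    ∀ x, ρ ≤ ‖x‖ → ‖x‖ ≤ R → m ≤ w x := by
  intro x hx1 hx2
  have hK : IsCompact {x : E | ρ ≤ ‖x‖ ∧ ‖x‖ ≤ R} := by
    apply Metric.isCompact_of_isClosed_isBounded
    · have h1 : IsClosed {x : E | ρ ≤ ‖x‖} := isClosed_le continuous_const continuous_norm
      have h2 : IsClosed {x : E | ‖x‖ ≤ R} := isClosed_le continuous_norm continuous_const
      exact h1.inter h2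
    · refine (Metric.isBounded_closedBall (x := (0 : E)) (r := R)).subset ?_
      intro y hy
      simpa using hy.2
  obtain ⟨z, hzK, hzmin⟩ := hK.exists_isMinOn ⟨x, hx1, hx2⟩ hcont
  have hzx : w z ≤ w x := hzmin ⟨hx1, hx2⟩
  rcases eq_or_lt_of_le hzK.1 with h1 | h1
  · exact (hin z h1.symm).trans hzx
  rcases eq_or_lt_of_le hzK.2 with h2 | h2
  · exact (hout z h2).trans hzx
  exfalso
  have hopen : IsOpen {y : E | ρ < ‖y‖ ∧ ‖y‖ < R} := by
    have h1 : IsOpen {x : E | ρ < ‖x‖} := isOpen_lt continuous_const continuous_norm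
    have h2 : IsOpen {x : E | ‖x‖ < R} := isOpen_lt continuous_norm continuous_const
    exact h1.inter h2
  have hloc : IsLocalMin w z := by
    have : {y : E | ρ < ‖y‖ ∧ ‖y‖ < R} ∈ 𝓝 z := hopen.mem_nhds ⟨h1, h2⟩
    filter_upwards [this] with y hy
    exact hzmin ⟨hy.1.le, hy.2.le⟩
  have := laplacian_nonneg_of_isLocalMin (hC2 z h1 h2) hloc
  linarith [hlap z h1 h2]

/-- The radial profile of the comparison function. -/
noncomputable def radLogR (a b r : ℝ) : ℝ :=
  a * (Real.log (r ^ 2)) ^ 2 + b * Real.log (r ^ 2)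

omit [FiniteDimensional ℝ E] [InnerProductSpace ℝ E] in
theorem radLog_eq (a b : ℝ) (y : E) : radLog a b y = radLogR a b ‖y‖ := rfl

theorem radLogR_tendsto (a b : ℝ) (ha : 0 < a) :
    Tendsto (radLogR a b) (𝓝[>] 0) atTop := by
  have h1 : Tendsto Real.log (𝓝[>] 0) atBot := Real.tendsto_log_nhdsGT_zero
  have h2 : Tendsto (fun r : ℝ => 4 * a * Real.log r + 2 * b) (𝓝[>] 0) atBot :=
    tendsto_atBot_add_const_right _ _ (h1.const_mul_atBot (by positivity))
  have h3 : Tendsto (fun r : ℝ => Real.log r * (4 * a * Real.log r + 2 * b)) (𝓝[>] 0) atTop :=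
    h1.atBot_mul_atBot₀ h2
  refine h3.congr' ?_
  filter_upwards with r
  unfold radLogR
  rw [Real.log_pow]
  push_cast
  ring

/-- Lower bound in a punctured ball obtained from the comparison function with `a > 0`. -/
theorem punctured_ball_lower {ι : Type*} [Fintype ι] (v : OrthonormalBasis ι ℝ E)
    {u : E → ℝ} {r0 a b m : ℝ} (ha : 0 < a)
    (hcont : Continuous u)
    (hC2 : ∀ x, x ≠ 0 → ‖x‖ < r0 → ContDiffAt ℝ 2 u x)
    (hlap : ∀ x, x ≠ 0 → ‖x‖ < r0 → Δ u x
      + (8 * a + ((Fintype.card ι : ℝ) - 2) * (4 * a * Real.log (‖x‖ ^ 2) + 2 * b)) / ‖x‖ ^ 2 < 0)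
    (hm : ∀ x, ‖x‖ = r0 → m ≤ u x) :
    ∀ x, x ≠ 0 → ‖x‖ ≤ r0 → m + radLogR a b r0 ≤ u x + radLogR a b ‖x‖ := by
  intro x hx0 hxr
  have hxpos : 0 < ‖x‖ := norm_pos_iff.mpr hx0
  -- a lower bound for `u` on the closed ball
  obtain ⟨C, hC⟩ := (isCompact_closedBall (0 : E) r0).exists_bound_of_continuousOn
    hcont.continuousOn
  have hlow : ∀ y : E, ‖y‖ ≤ r0 → -C ≤ u y := by
    intro y hy
    have := hC y (by simpa using hy)
    rw [Real.norm_eq_abs] at this
    linarith [neg_abs_le (u y)]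
  -- choose the inner radius
  have hev1 : ∀ᶠ ρ in 𝓝[>] (0 : ℝ), m + radLogR a b r0 + C ≤ radLogR a b ρ :=
    (radLogR_tendsto a b ha).eventually_ge_atTop _
  have hev2 : ∀ᶠ ρ in 𝓝[>] (0 : ℝ), ρ < ‖x‖ :=
    nhdsWithin_le_nhds (gt_mem_nhds hxpos)
  have hev3 : ∀ᶠ ρ in 𝓝[>] (0 : ℝ), 0 < ρ := eventually_mem_nhdsWithin
  obtain ⟨ρ, hρ1, hρ2, hρ3⟩ := (hev1.and (hev2.and hev3)).exists
  -- the comparison function
  have key : ∀ y : E, ρ ≤ ‖y‖ → ‖y‖ ≤ r0 → m + radLogR a b r0 ≤ (u + radLog (E := E) a b) y := by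
    apply annulus_min
    · apply ContinuousOn.add hcont.continuousOn
      intro y hy
      have hy0 : y ≠ 0 := by
        intro h
        have h1 : ρ ≤ ‖y‖ := hy.1
        rw [h, norm_zero] at h1
        linarith
      exact (radLog_contDiffAt a b hy0).continuousAt.continuousWithinAt
    · intro y hy1 hy2
      have hy0 : y ≠ 0 := by
        intro h
        rw [h, norm_zero] at hy1
        linarith
      exact (hC2 y hy0 hy2).add (radLog_contDiffAt a b hy0)
    · intro y hy1 hy2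
      have hy0 : y ≠ 0 := by
        intro h
        rw [h, norm_zero] at hy1
        linarith
      rw [(hC2 y hy0 hy2).laplacian_add (radLog_contDiffAt a b hy0), laplacian_radLog v a b hy0]
      exact hlap y hy0 hy2
    · intro y hy
      have h1 := hlow y (by rw [hy]; linarith [hρ2])
      simp only [Pi.add_apply, radLog_eq, hy]
      linarith
    · intro y hy
      have h1 := hm y hy
      simp only [Pi.add_apply, radLog_eq, hy]
      linarith
  have := key x hρ2.le hxr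
  simpa [radLog_eq] using this

end Vale.Agent.Lib.P100
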