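import Mathlib
import Vale.Agent.Lib.P100.Annulus

open InnerProductSpace Laplacian Filter Topology
open scoped RealInnerProductSpace

namespace Vale.Agent.Lib.P100

variable {E : Type*} [NormedAddCommGroup E] [InnerProductSpace ℝ E] [FiniteDimensional ℝ E]

/-- In dimension two, `u + k log |y|^2` has the same Laplacian as `u` away from the origin. -/
theorem laplacian_add_radLog_plane {ι : Type*} [Fintype ι] (v : OrthonormalBasis ι ℝ E)
    (hcard : Fintype.card ι = 2) {u : E → ℝ} (k : ℝ) {y : E} (hy0 : y ≠ 0)
    (hu : ContDiffAt ℝ 2 u y) :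
    Δ (u + radLog (E := E) 0 k) y = Δ u y := by
  rw [hu.laplacian_add (radLog_contDiffAt 0 k hy0), laplacian_radLog v 0 k hy0, hcard]
  simp

/-- Comparison on an annulus in dimension two. -/
theorem plane_annulus {ι : Type*} [Fintype ι] (v : OrthonormalBasis ι ℝ E)
    (hcard : Fintype.card ι = 2) {u : E → ℝ} (hu : Continuous u)
    (hC2 : ContDiffOn ℝ 2 u {0}ᶜ) (hlap : ∀ x, x ≠ 0 → Δ u x < 0)
    {ρ R m k : ℝ} (hρ : 0 < ρ)
    (hin : ∀ y : E, ‖y‖ = ρ → m ≤ u y + k * Real.log (ρ ^ 2))
    (hout : ∀ y : E, ‖y‖ = R → m ≤ u y + k * Real.log (R ^ 2)) :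
    ∀ x : E, ρ ≤ ‖x‖ → ‖x‖ ≤ R → m ≤ u x + k * Real.log (‖x‖ ^ 2) := by
  have hne : ∀ y : E, ρ ≤ ‖y‖ → y ≠ 0 := by
    intro y hy h
    rw [h, norm_zero] at hy
    linarith
  have hCD : ∀ y : E, y ≠ 0 → ContDiffAt ℝ 2 u y := by
    intro y hy
    exact (hC2 y hy).contDiffAt (isOpen_compl_singleton.mem_nhds hy)
  have key : ∀ y : E, ρ ≤ ‖y‖ → ‖y‖ ≤ R → m ≤ (u + radLog (E := E) 0 k) y := by
    apply annulus_min
    · apply ContinuousOn.add hu.continuousOn
      intro y hy
      exact (radLog_contDiffAt 0 k (hne y hy.1)).continuousAt.continuousWithinAt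
    · intro y hy1 hy2
      exact (hCD y (hne y hy1.le)).add (radLog_contDiffAt 0 k (hne y hy1.le))
    · intro y hy1 hy2
      rw [laplacian_add_radLog_plane v hcard k (hne y hy1.le) (hCD y (hne y hy1.le))]
      exact hlap y (hne y hy1.le)
    · intro y hy
      have := hin y hy
      simpa [radLog, hy] using this
    · intro y hy
      have := hout y hy
      simpa [radLog, hy] using this
  intro x hx1 hx2
  have := key x hx1 hx2
  simpa [radLog] using this

/-- There is no positive continuous function on a two-dimensional Euclidean space that is `C^2`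
and strictly superharmonic away from the origin. -/
theorem no_pos_superharmonic_plane {ι : Type*} [Fintype ι] (v : OrthonormalBasis ι ℝ E)
    (hcard : Fintype.card ι = 2) {u : E → ℝ} (hu : Continuous u) (hpos : ∀ x, 0 < u x)
    (hC2 : ContDiffOn ℝ 2 u {0}ᶜ) (hlap : ∀ x, x ≠ 0 → Δ u x < 0) : False := by
  have hCD : ∀ y : E, y ≠ 0 → ContDiffAt ℝ 2 u y := by
    intro y hy
    exact (hC2 y hy).contDiffAt (isOpen_compl_singleton.mem_nhds hy)
  -- the unit sphere is compact and nonempty
  have hι : Nonempty ι := by
    apply Fintype.card_pos_iff.mp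
    omega
  obtain ⟨i0⟩ := hι
  have hS : IsCompact (Metric.sphere (0 : E) 1) := isCompact_sphere 0 1
  have hSne : (Metric.sphere (0 : E) 1).Nonempty := ⟨v i0, by simp [v.orthonormal.1 i0]⟩
  obtain ⟨x0, hx0S, hx0min⟩ := hS.exists_isMinOn hSne hu.continuousOn
  have hx0n : ‖x0‖ = 1 := by simpa using hx0S
  have hx0ne : x0 ≠ 0 := by
    intro h
    rw [h, norm_zero] at hx0n
    norm_num at hx0n
  have hm : 0 < u x0 := hpos x0
  have hmin1 : ∀ y : E, ‖y‖ = 1 → u x0 ≤ u y := by
    intro y hy
    exact hx0min (by simpa using hy)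
  -- the global lower bound
  have hglob : ∀ x : E, x ≠ 0 → u x0 ≤ u x := by
    intro x hx
    have hxpos : 0 < ‖x‖ := norm_pos_iff.mpr hx
    by_contra hlt
    push Not at hlt
    rcases lt_trichotomy ‖x‖ 1 with h | h | h
    · -- inside the unit disc
      have hL : Real.log (‖x‖ ^ 2) < 0 := by
        apply Real.log_neg (by positivity)
        nlinarith
      set ε : ℝ := (u x0 - u x) / (2 * (-Real.log (‖x‖ ^ 2))) with hε
      have hεpos : 0 < ε := by
        apply div_pos (by linarith) (by linarith)
      -- inner radius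
      set ρ : ℝ := min (‖x‖ / 2) (Real.exp (-(u x0) / (2 * ε))) with hρ
      have hρpos : 0 < ρ := lt_min (by positivity) (Real.exp_pos _)
      have hρx : ρ ≤ ‖x‖ := (min_le_left _ _).trans (by linarith)
      have hρlog : Real.log (ρ ^ 2) ≤ -(u x0) / ε := by
        rw [Real.log_pow]
        have h1 : Real.log ρ ≤ -(u x0) / (2 * ε) := by
          have := Real.log_le_log hρpos (min_le_right (‖x‖ / 2) (Real.exp (-(u x0) / (2 * ε))))
          rwa [Real.log_exp] at this
        have h2 : -(u x0) / ε = 2 * (-(u x0) / (2 * ε)) := by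
          field_simp
        rw [h2]
        push_cast
        linarith
      have key := plane_annulus v hcard hu hC2 hlap (ρ := ρ) (R := 1) (m := u x0) (k := -ε) hρpos
        (by
          intro y hy
          have h1 : 0 < u y := hpos y
          have h2 : u x0 ≤ -ε * Real.log (ρ ^ 2) := by
            have : ε * Real.log (ρ ^ 2) ≤ ε * (-(u x0) / ε) :=
              mul_le_mul_of_nonneg_left hρlog hεpos.le
            have h3 : ε * (-(u x0) / ε) = -(u x0) := by field_simp
            linarith
          linarith)
        (by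
          intro y hy
          have := hmin1 y hy
          simpa using this)
        x hρx h.le
      have hLne : Real.log (‖x‖ ^ 2) ≠ 0 := hL.ne
      have h4 : ε * Real.log (‖x‖ ^ 2) = -(u x0 - u x) / 2 := by
        rw [hε]
        field_simp
      linarith
    · exact absurd (hmin1 x h) (not_le.mpr hlt)
    · -- outside the unit disc
      have hL : 0 < Real.log (‖x‖ ^ 2) := by
        apply Real.log_pos
        nlinarith
      set T : ℝ := u x0 * Real.log (‖x‖ ^ 2) / (u x0 - u x) with hT
      have hTpos : 0 < T := by
        apply div_pos (mul_pos hm hL) (by linarith)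
      set R : ℝ := Real.exp T + ‖x‖ with hR
      have hRx : ‖x‖ ≤ R := by
        have := Real.exp_pos T
        linarith
      have hRpos : 0 < R := by linarith
      have hRlog : T < Real.log (R ^ 2) := by
        rw [Real.log_pow]
        have h1 : T < Real.log R := by
          rw [Real.lt_log_iff_exp_lt hRpos]
          linarith
        push_cast
        linarith
      have hLR : 0 < Real.log (R ^ 2) := by linarith
      have key := plane_annulus v hcard hu hC2 hlap (ρ := 1) (R := R) (m := u x0)
        (k := u x0 / Real.log (R ^ 2)) one_pos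
        (by
          intro y hy
          have := hmin1 y hy
          simpa using this)
        (by
          intro y hy
          have h1 : 0 < u y := hpos y
          have h2 : u x0 / Real.log (R ^ 2) * Real.log (R ^ 2) = u x0 := by
            field_simp
          linarith)
        x h.le hRx
      -- u x0 * log|x|^2 / log R^2 < u x0 - u x
      have h5 : u x0 / Real.log (R ^ 2) * Real.log (‖x‖ ^ 2) < u x0 - u x := by
        have h6 : u x0 * Real.log (‖x‖ ^ 2) = T * (u x0 - u x) := by
          rw [hT]
          field_simp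
        have h7 : u x0 / Real.log (R ^ 2) * Real.log (‖x‖ ^ 2)
            = T * (u x0 - u x) / Real.log (R ^ 2) := by
          rw [← h6]
          ring
        rw [h7, div_lt_iff₀ hLR]
        have : 0 < u x0 - u x := by linarith
        nlinarith
      linarith
  -- conclude at the minimum point on the unit circle
  have hloc : IsLocalMin u x0 := by
    have : {y : E | y ≠ 0} ∈ 𝓝 x0 := isOpen_compl_singleton.mem_nhds hx0ne
    filter_upwards [this] with y hy
    exact hglob y hy
  have := laplacian_nonneg_of_isLocalMin (hCD x0 hx0ne) hloc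
  linarith [hlap x0 hx0ne]

end Vale.Agent.Lib.P100
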