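import Mathlib
import Vale.Agent.Lib.P100.Annulus

open InnerProductSpace Laplacian Filter Topology
open scoped RealInnerProductSpace

namespace Vale.Agent.Lib.P100

variable {E : Type*} [NormedAddCommGroup E] [InnerProductSpace ℝ E] [FiniteDimensional ℝ E]

/-- In dimension at least three, the equation `-Δ u = |x|^A w^p` with `A ≤ -2`, `w` continuous and
positive at the origin, has no solution `u` that is continuous at the origin. -/
theorem no_sol_singular {ι : Type*} [Fintype ι] (v : OrthonormalBasis ι ℝ E)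
    (hcard : 3 ≤ Fintype.card ι)
    {u w : E → ℝ} {A p : ℝ} (hA : A ≤ -2) (hp : 0 ≤ p)
    (hu : Continuous u) (hw : Continuous w) (hw0 : 0 < w 0)
    (hC2 : ContDiffOn ℝ 2 u {0}ᶜ)
    (heq : ∀ x, x ≠ 0 → -(Δ u x) = ‖x‖ ^ A * (w x) ^ p) : False := by
  have hCD : ∀ y : E, y ≠ 0 → ContDiffAt ℝ 2 u y := by
    intro y hy
    exact (hC2 y hy).contDiffAt (isOpen_compl_singleton.mem_nhds hy)
  have hι : Nonempty ι := by
    apply Fintype.card_pos_iff.mp
    omega
  obtain ⟨i0⟩ := hι
  have hd : (3 : ℝ) ≤ (Fintype.card ι : ℝ) := by exact_mod_cast hcard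
  -- positivity of `w` near the origin
  have hev : ∀ᶠ x in 𝓝 (0 : E), w 0 / 2 < w x :=
    (hw.tendsto 0).eventually (lt_mem_nhds (by linarith))
  obtain ⟨r1, hr1, hball⟩ := Metric.eventually_nhds_iff.mp hev
  set c : ℝ := (w 0 / 2) ^ p with hc
  have hcpos : 0 < c := Real.rpow_pos_of_pos (by linarith) p
  set r0 : ℝ := min (r1 / 2) (Real.exp (-1)) with hr0
  have hr0pos : 0 < r0 := lt_min (by linarith) (Real.exp_pos _)
  have hr0r1 : r0 < r1 := (min_le_left _ _).trans_lt (by linarith)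
  have hr0e : r0 ≤ Real.exp (-1) := min_le_right _ _
  have he1 : Real.exp (-1) < 1 := by
    rw [Real.exp_lt_one_iff]
    norm_num
  -- the differential inequality near the origin
  have hineq : ∀ x : E, x ≠ 0 → ‖x‖ ≤ r0 → Δ u x ≤ -(c / ‖x‖ ^ 2) := by
    intro x hx hxr
    have hxpos : 0 < ‖x‖ := norm_pos_iff.mpr hx
    have hx1 : ‖x‖ ≤ 1 := by linarith
    have h1 : c ≤ (w x) ^ p := by
      apply Real.rpow_le_rpow (by linarith) _ hp
      have := hball (y := x) (by rw [dist_zero_right]; linarith)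
      linarith
    have h2 : ‖x‖ ^ (-2 : ℝ) ≤ ‖x‖ ^ A := Real.rpow_le_rpow_of_exponent_ge hxpos hx1 hA
    have h3 : ‖x‖ ^ (-2 : ℝ) = 1 / ‖x‖ ^ 2 := by
      rw [Real.rpow_neg hxpos.le, one_div]
      congr 1
      exact Real.rpow_two ‖x‖
    have h4 : 0 < ‖x‖ ^ (-2 : ℝ) := Real.rpow_pos_of_pos hxpos _
    have h5 : ‖x‖ ^ (-2 : ℝ) * c ≤ ‖x‖ ^ A * (w x) ^ p :=
      mul_le_mul h2 h1 hcpos.le (h4.le.trans h2)
    have h6 := heq x hx
    have h7 : ‖x‖ ^ (-2 : ℝ) * c = c / ‖x‖ ^ 2 := by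
      rw [h3]
      ring
    linarith
  -- bounds for `u` on the closed ball
  obtain ⟨C, hC⟩ := (isCompact_closedBall (0 : E) r0).exists_bound_of_continuousOn
    hu.continuousOn
  have hbd : ∀ y : E, ‖y‖ ≤ r0 → -C ≤ u y ∧ u y ≤ C := by
    intro y hy
    have := hC y (by simpa using hy)
    rw [Real.norm_eq_abs] at this
    exact ⟨by linarith [neg_abs_le (u y)], by linarith [le_abs_self (u y)]⟩
  have hC0 : 0 ≤ C := by
    have := hbd 0 (by simpa using hr0pos.le)
    linarith
  set b : ℝ := c / (4 * ((Fintype.card ι : ℝ) - 2)) with hb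
  have hbpos : 0 < b := div_pos hcpos (by linarith)
  have hb2 : ((Fintype.card ι : ℝ) - 2) * (2 * b) = c / 2 := by
    rw [hb]
    have : (Fintype.card ι : ℝ) - 2 ≠ 0 := by linarith
    field_simp
    ring
  -- the comparison estimate, for every `a > 0`
  have hP : ∀ a : ℝ, 0 < a → ∀ x : E, x ≠ 0 → ‖x‖ ≤ r0 →
      -C + radLogR a b r0 ≤ u x + radLogR a b ‖x‖ := by
    intro a ha
    apply punctured_ball_lower v ha hu
    · intro x hx _
      exact hCD x hx
    · intro x hx hxr
      have hxpos : 0 < ‖x‖ := norm_pos_iff.mpr hx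
      have hlog : Real.log (‖x‖ ^ 2) ≤ -2 := by
        rw [Real.log_pow]
        have h1 : Real.log ‖x‖ ≤ -1 := by
          have := Real.log_le_log hxpos (hxr.le.trans hr0e)
          rwa [Real.log_exp] at this
        push_cast
        linarith
      have hnum : 8 * a + ((Fintype.card ι : ℝ) - 2) * (4 * a * Real.log (‖x‖ ^ 2) + 2 * b)
          ≤ c / 2 := by
        have h1 : ((Fintype.card ι : ℝ) - 2) * (4 * a * Real.log (‖x‖ ^ 2)) ≤ -(8 * a) := by
          have h2 : 4 * a * Real.log (‖x‖ ^ 2) ≤ -(8 * a) := by nlinarith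
          have h3 : (1 : ℝ) ≤ (Fintype.card ι : ℝ) - 2 := by linarith
          nlinarith
        have : ((Fintype.card ι : ℝ) - 2) * (4 * a * Real.log (‖x‖ ^ 2) + 2 * b)
            = ((Fintype.card ι : ℝ) - 2) * (4 * a * Real.log (‖x‖ ^ 2))
              + ((Fintype.card ι : ℝ) - 2) * (2 * b) := by ring
        rw [this, hb2]
        linarith
      have hsq : 0 < ‖x‖ ^ 2 := by positivity
      have h1 := hineq x hx hxr.le
      have h2 : (8 * a + ((Fintype.card ι : ℝ) - 2) * (4 * a * Real.log (‖x‖ ^ 2) + 2 * b))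
          / ‖x‖ ^ 2 ≤ (c / 2) / ‖x‖ ^ 2 := div_le_div_of_nonneg_right hnum hsq.le
      have h3 : (c / 2) / ‖x‖ ^ 2 < c / ‖x‖ ^ 2 := by
        apply div_lt_div_of_pos_right _ hsq
        linarith
      linarith
    · intro x hx
      exact (hbd x hx.le).1
  -- choose a point close to the origin
  set T : ℝ := (2 * C + 2) / b with hT
  have hTpos : 0 < T := div_pos (by linarith) hbpos
  set x : E := (r0 * Real.exp (-T)) • v i0 with hxdef
  have hnormx : ‖x‖ = r0 * Real.exp (-T) := by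
    rw [hxdef, norm_smul, v.orthonormal.1 i0, mul_one, Real.norm_eq_abs,
      abs_of_pos (mul_pos hr0pos (Real.exp_pos _))]
  have hxpos : 0 < ‖x‖ := by
    rw [hnormx]
    exact mul_pos hr0pos (Real.exp_pos _)
  have hx0 : x ≠ 0 := norm_pos_iff.mp hxpos
  have hxr : ‖x‖ ≤ r0 := by
    rw [hnormx]
    have : Real.exp (-T) ≤ 1 := by
      rw [Real.exp_le_one_iff]
      linarith
    nlinarith
  set L0 : ℝ := Real.log (r0 ^ 2) with hL0
  set L1 : ℝ := Real.log (‖x‖ ^ 2) with hL1
  have hL01 : L1 = L0 - 2 * T := by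
    rw [hL1, hL0, hnormx, Real.log_pow, Real.log_pow, Real.log_mul hr0pos.ne' (Real.exp_pos _).ne',
      Real.log_exp]
    push_cast
    ring
  set a : ℝ := 1 / (L1 ^ 2 + 1) with ha
  have hapos : 0 < a := by positivity
  have hmain := hP a hapos x hx0 hxr
  have hupper := (hbd x hxr).2
  unfold radLogR at hmain
  rw [← hL0, ← hL1] at hmain
  have haL1 : a * L1 ^ 2 < 1 := by
    rw [ha, one_div, inv_mul_lt_iff₀ (by positivity)]
    linarith
  have haL0 : 0 ≤ a * L0 ^ 2 := by positivity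
  have hbT : b * (L0 - L1) = 4 * C + 4 := by
    rw [hL01, hT]
    field_simp
    ring
  nlinarith

end Vale.Agent.Lib.P100
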